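import Mathlib

/-! Smooth dependence on initial data and time for flows of smooth vector fields. -/

open scoped ContDiff Topology
open Set Filter Metric

set_option linter.unusedSectionVars false

namespace Vale.Agent.P234

namespace Fl

section nem
variable {K V : Type} [TopologicalSpace K] [CompactSpace K] [NormedAddCommGroup V]
  [NormedSpace ℝ V]

/-- pointwise application of a path of operators -/
noncomputable def app (K V W : Type) [TopologicalSpace K] [CompactSpace K] [NormedAddCommGroup V]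
    [NormedSpace ℝ V] [NormedAddCommGroup W] [NormedSpace ℝ W] :
    C(K, V →L[ℝ] W) →L[ℝ] C(K, V) →L[ℝ] C(K, W) :=
  LinearMap.mkContinuous₂ (LinearMap.mk₂ ℝ
    (fun (A : C(K, V →L[ℝ] W)) (h : C(K, V)) => (⟨fun t => A t (h t), by fun_prop⟩ : C(K, W)))
    (fun _ _ _ => by ext; simp) (fun _ _ _ => by ext; simp) (fun _ _ _ => by ext; simp)
    (fun _ _ _ => by ext; simp)) 1 fun A h => by
      rw [one_mul]
      exact (ContinuousMap.norm_le _ (by positivity)).2 fun t =>
        ((A t).le_of_opNorm_le (A.norm_coe_le_norm t) _).trans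
          (by gcongr; exact h.norm_coe_le_norm t)

variable [FiniteDimensional ℝ V]

lemma nem (n : ℕ) : ∀ (W : Type) [NormedAddCommGroup W] [NormedSpace ℝ W] (F : C(V, W)),
    ContDiff ℝ n F → ContDiff ℝ n fun γ : C(K, V) => F.comp γ := by
  induction n with
  | zero => exact fun W _ _ F _ => contDiff_zero.2 (ContinuousMap.continuous_postcomp F)
  | succ n ih =>
    intro W _ _ F hF
    obtain ⟨h1, -, h2⟩ := contDiff_succ_iff_fderiv.1 (show ContDiff ℝ (n + 1) F from hF)
    let F' : C(V, V →L[ℝ] W) := ⟨fderiv ℝ F, h2.continuous⟩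
    refine contDiff_succ_iff_hasFDerivAt.2 ⟨fun γ => app K V W (F'.comp γ),
      (ih _ F' h2).continuousLinearMap_comp (app K V W), fun γ => ?_⟩
    rw [hasFDerivAt_iff_isLittleO_nhds_zero, Asymptotics.isLittleO_iff]
    intro ε ε0
    obtain ⟨δ, δ0, hδ⟩ := Metric.uniformContinuousOn_iff_le.1
      ((isCompact_closedBall (0 : V) (‖γ‖ + 1)).uniformContinuousOn_of_continuous
        h2.continuous.continuousOn) ε ε0
    filter_upwards [closedBall_mem_nhds 0 (lt_min δ0 one_pos)] with h hh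
    rw [mem_closedBall_zero_iff, le_min_iff] at hh
    refine (ContinuousMap.norm_le _ (by positivity)).2 fun t => ?_
    have a := h.norm_coe_le_norm t
    have b := γ.norm_coe_le_norm t
    have := (convex_closedBall (γ t) ‖h t‖).norm_image_sub_le_of_norm_fderiv_le' (f := F)
      (φ := fderiv ℝ F (γ t)) (C := ε) (fun x _ => h1 x) (fun x hx => by
        rw [mem_closedBall_iff_norm] at hx
        have := norm_le_norm_add_norm_sub' x (γ t)
        rw [← dist_eq_norm]
        exact hδ _ (mem_closedBall_zero_iff.2 (by linarith)) _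
          (mem_closedBall_zero_iff.2 (by linarith)) (by rw [dist_eq_norm]; linarith))
      (mem_closedBall_self (norm_nonneg _))
      (y := γ t + h t) (by simp)
    rw [add_sub_cancel_left] at this
    exact this.trans (by gcongr)

end nem

/-- the implicit function is smooth on a neighbourhood -/
lemma impl {E₁ E₂ F : Type*} [NormedAddCommGroup E₁] [NormedSpace ℝ E₁] [CompleteSpace E₁]
    [NormedAddCommGroup E₂] [NormedSpace ℝ E₂] [CompleteSpace E₂]
    [NormedAddCommGroup F] [NormedSpace ℝ F] [CompleteSpace F] {f : E₁ × E₂ → F} {u : E₁ × E₂}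
    (hf : ∀ᶠ v in 𝓝 u, ContDiffAt ℝ ∞ f v)
    (hi : (fderiv ℝ f u ∘L .inr ℝ E₁ E₂).IsInvertible) : ∃ ψ : E₁ → E₂, ψ u.1 = u.2 ∧
      (∀ᶠ x in 𝓝 u.1, ContDiffAt ℝ ∞ ψ x ∧ f (x, ψ x) = f u) ∧
      ∀ᶠ v in 𝓝 u, f v = f u → ψ v.1 = v.2 := by
  have h0 := hf.self_of_nhds
  have n0 : (∞ : WithTop ℕ∞) ≠ 0 := by simp
  refine ⟨h0.implicitFunction n0 hi, h0.implicitFunction_apply_self n0 hi, ?_,
    (h0.eventually_apply_eq_iff_implicitFunction n0 hi).mono fun v h => h.1⟩
  set ψ := h0.implicitFunction n0 hi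
  have c1 : ContDiffAt ℝ 1 ψ u.1 := (h0.contDiffAt_implicitFunction n0 hi).of_le (by simp)
  have t : Tendsto (fun x => (x, ψ x)) (𝓝 u.1) (𝓝 u) := by
    have := continuousAt_id.prodMk c1.continuousAt
    rwa [ContinuousAt, id, show ψ u.1 = u.2 from h0.implicitFunction_apply_self n0 hi] at this
  have i : ∀ᶠ v in 𝓝 u, (fderiv ℝ f v ∘L .inr ℝ E₁ E₂).IsInvertible := by
    have c : ContinuousAt (fun v => fderiv ℝ f v ∘L .inr ℝ E₁ E₂) u :=
      ((h0.fderiv_right (m := 0) (by simp)).continuousAt).clm_comp continuousAt_const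
    obtain ⟨e, he⟩ := hi
    exact c.eventually_mem (he ▸ ContinuousLinearEquiv.nhds e)
  have e := h0.eventually_apply_implicitFunction n0 hi
  filter_upwards [t.eventually hf, t.eventually i, e.eventually_nhds, c1.eventually (by simp)]
    with x h1 h2 h3 h4
  refine ⟨(h1.contDiffAt_implicitFunction n0 h2).congr_of_eventuallyEq ?_, h3.self_of_nhds⟩
  filter_upwards [(continuousAt_id.prodMk h4.continuousAt).eventually
    (h1.eventually_apply_eq_iff_implicitFunction n0 h2), h3] with y a b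
  exact (a.1 (b.trans h3.self_of_nhds.symm)).symm

/-- the parameter interval -/
abbrev J : Type := Icc (-1 : ℝ) 1

/-- extension of a path to the line -/
noncomputable def ext {V : Type} [TopologicalSpace V] (γ : C(J, V)) (t : ℝ) : V :=
  γ (projIcc (-1) 1 (by norm_num) t)

lemma ext_cont {V : Type} [TopologicalSpace V] (γ : C(J, V)) : Continuous (ext γ) :=
  γ.continuous.comp continuous_projIcc

variable {V : Type} [NormedAddCommGroup V] [NormedSpace ℝ V] [CompleteSpace V]

lemma prim_der (γ : C(J, V)) (t : ℝ) : HasDerivAt (fun r => ∫ u in (0 : ℝ)..r, ext γ u) (ext γ t) t :=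
  ((ext_cont γ).integral_hasStrictDerivAt 0 t).hasDerivAt

/-- the primitive vanishing at `0` -/
noncomputable def prim (V : Type) [NormedAddCommGroup V] [NormedSpace ℝ V] [CompleteSpace V] :
    C(J, V) →L[ℝ] C(J, V) :=
  LinearMap.mkContinuous
    { toFun := fun γ => ⟨fun t => ∫ u in (0 : ℝ)..t, ext γ u,
        (continuous_iff_continuousAt.2 fun t => (prim_der γ t).continuousAt).comp
          continuous_subtype_val⟩
      map_add' := fun γ η => by
        ext t
        exact intervalIntegral.integral_add ((ext_cont γ).intervalIntegrable _ _)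
          ((ext_cont η).intervalIntegrable _ _)
      map_smul' := fun c γ => by
        ext t
        exact intervalIntegral.integral_smul c (ext γ) } 1 fun γ => by
    rw [one_mul]
    refine (ContinuousMap.norm_le _ (norm_nonneg _)).2 fun t => ?_
    refine (intervalIntegral.norm_integral_le_of_norm_le_const (C := ‖γ‖)
      fun u _ => γ.norm_coe_le_norm _).trans (mul_le_of_le_one_right (norm_nonneg _) ?_)
    rw [sub_zero]; exact abs_le.2 t.2

lemma prim_apply (γ : C(J, V)) (t : J) : prim V γ t = ∫ u in (0 : ℝ)..t, ext γ u := rfl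

lemma ext_coe (γ : C(J, V)) {t : ℝ} (ht : t ∈ Icc (-1 : ℝ) 1) : ext γ t = γ ⟨t, ht⟩ := by
  rw [ext, projIcc_of_mem]

/-- constant paths -/
noncomputable def cst (V : Type) [NormedAddCommGroup V] [NormedSpace ℝ V] : V →L[ℝ] C(J, V) :=
  LinearMap.mkContinuous ⟨⟨fun z => .const J z, fun _ _ => rfl⟩, fun _ _ => rfl⟩ 1 fun z => by
    rw [one_mul]; exact (ContinuousMap.norm_le _ (norm_nonneg _)).2 fun _ => le_rfl

lemma glob [FiniteDimensional ℝ V] (G : C(V, V)) (hG : ContDiff ℝ ∞ G) (z₀ : V) {ρ : ℝ}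
    (hρ : 0 < ρ) : ∃ ε > 0, ∃ Φ : ℝ × V → V, ContDiffOn ℝ ∞ Φ (ball (0, z₀) ε) ∧
      ∀ z ∈ ball z₀ ε, Φ (0, z) = z ∧ ∀ s ∈ Ioo (-ε) ε, Φ (s, z) ∈ ball z₀ ρ ∧
        HasDerivAt (fun r => Φ (r, z)) (G (Φ (s, z))) s := by
  have hN : ContDiff ℝ ∞ fun γ : C(J, V) => G.comp γ :=
    contDiff_infty.2 fun n => nem n V G (hG.of_le (by exact_mod_cast le_top))
  let T : (ℝ × V) × C(J, V) → C(J, V) := fun v => v.2 - cst V v.1.2 - v.1.1 • prim V (G.comp v.2)
  have hT : ContDiff ℝ ∞ T := (contDiff_snd.sub ((cst V).contDiff.comp contDiff_fst.snd)).sub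
    (contDiff_fst.fst.smul ((prim V).contDiff.comp (hN.comp contDiff_snd)))
  have T0 : T ((0, z₀), cst V z₀) = 0 := by simp [T]
  have hi : (fderiv ℝ T ((0, z₀), cst V z₀) ∘L .inr ℝ (ℝ × V) C(J, V)).IsInvertible := by
    have a := (hT.differentiable (by simp) ((0, z₀), cst V z₀)).hasFDerivAt.comp (cst V z₀)
      (hasFDerivAt_prodMk_right (0, z₀) (cst V z₀))
    have b : HasFDerivAt (T ∘ fun γ => ((0, z₀), γ)) (.id ℝ _) (cst V z₀) := by
      simpa [T, Function.comp_def] using (hasFDerivAt_id (cst V z₀)).sub_const (cst V z₀)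
    rw [a.unique b]
    exact ⟨.refl ℝ _, rfl⟩
  obtain ⟨ψ, p0, p1, p2⟩ := impl (.of_forall fun v => hT.contDiffAt) hi
  rw [T0] at p1 p2
  obtain ⟨δ, δ0, hδ⟩ := Metric.eventually_nhds_iff_ball.1 p2
  have c := p1.self_of_nhds.1.continuousAt
  rw [ContinuousAt, p0] at c
  obtain ⟨η, ⟨η0, ηδ⟩, hη⟩ := (Metric.nhds_basis_closedBall.restrict_subset
    (s := fun ε => closedBall ((0 : ℝ), z₀) ε) (ball_mem_nhds _ δ0)).eventually_iff.1
    (p1.and (c.eventually (ball_mem_nhds _ (lt_min δ0 hρ))))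
  have val : ∀ p ∈ closedBall ((0 : ℝ), z₀) η, ∀ t, dist (ext (ψ p) t) z₀ < min δ ρ :=
    fun p hp t => (ContinuousMap.dist_apply_le_dist (f := ψ p) (g := cst V z₀) _).trans_lt
      (hη hp).2
  have eqn : ∀ p ∈ closedBall ((0 : ℝ), z₀) η, ∀ t ∈ Icc (-1 : ℝ) 1,
      ext (ψ p) t = p.2 + p.1 • ∫ u in (0 : ℝ)..t, G (ext (ψ p) u) := fun p hp t ht => by
    have := congr($((hη hp).1.2) ⟨t, ht⟩)
    rw [ext_coe _ ht, ← sub_eq_zero, ← sub_sub]
    exact this
  have mem : ∀ z ∈ ball z₀ η, ∀ s, |s| ≤ η → (s, z) ∈ closedBall ((0 : ℝ), z₀) η :=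
    fun z hz s hs => by
      rw [mem_closedBall, Prod.dist_eq, max_le_iff]
      exact ⟨by simpa using hs, (mem_ball.1 hz).le⟩
  have sc : ∀ s t : ℝ, |s| ≤ η → t ∈ Icc (-1 : ℝ) 1 → t * (s / η) ∈ Icc (-1 : ℝ) 1 :=
    fun s t hs ht => abs_le.1 (by
      rw [abs_mul, abs_div, abs_of_pos η0]
      exact mul_le_one₀ (abs_le.2 ht) (by positivity) ((div_le_one η0).2 hs))
  have key : ∀ z ∈ ball z₀ η, ∀ s, |s| ≤ η → ext (ψ (s, z)) 1 = ext (ψ (η, z)) (s / η) := by
    intro z hz s hs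
    have m := mem z hz η (abs_of_pos η0).le
    let γ : C(J, V) := ⟨fun t => ext (ψ (η, z)) (t * (s / η)),
      (ext_cont _).comp (continuous_subtype_val.mul continuous_const)⟩
    have := hδ ((s, z), γ) (by
      rw [mem_ball, Prod.dist_eq, max_lt_iff]
      exact ⟨ηδ (mem z hz s hs), (ContinuousMap.dist_lt_iff δ0).2 fun t =>
        (val _ m _).trans_le (min_le_left _ _)⟩) (by
      ext t
      have e : ∫ u in (0 : ℝ)..t, ext (G.comp γ) u =
          ∫ u in (0 : ℝ)..t, G (ext (ψ (η, z)) (u * (s / η))) :=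
        intervalIntegral.integral_congr fun u hu => ext_coe _
          (uIcc_subset_Icc ⟨by norm_num, by norm_num⟩ t.2 hu)
      have f := intervalIntegral.smul_integral_comp_mul_right
        (fun u => G (ext (ψ (η, z)) u)) (a := 0) (b := t) (s / η)
      change ext (ψ (η, z)) (t * (s / η)) - z - s • ∫ u in (0 : ℝ)..t, ext (G.comp γ) u = 0
      rw [eqn _ m _ (sc s t hs t.2), e, ← zero_mul (s / η), ← f, smul_smul,
        mul_div_cancel₀ _ η0.ne']
      simp)
    rw [show ψ (s, z) = γ from this, ext_coe _ ⟨by norm_num, le_rfl⟩]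
    exact congrArg (ext (ψ (η, z))) (one_mul (s / η))
  refine ⟨η, η0, fun p => ext (ψ p) 1, fun p hp => ?_, fun z hz => ⟨?_, fun s hs => ⟨?_, ?_⟩⟩⟩
  · exact ((ContinuousMap.evalCLM ℝ _).contDiff.contDiffAt.comp p
      (hη (ball_subset_closedBall hp)).1.1).contDiffWithinAt
  · simpa using eqn _ (mem z hz 0 (by simpa using η0.le)) 1 ⟨by norm_num, le_rfl⟩
  · exact (val _ (mem z hz s (abs_lt.2 hs).le) _).trans_le (min_le_right _ _)
  · have m := mem z hz η (abs_of_pos η0).le
    have d := (((prim_der (G.comp (ψ (η, z))) (s / η)).scomp s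
      ((hasDerivAt_id s).div_const η)).const_smul η).const_add z
    rw [smul_smul, mul_one_div_cancel η0.ne', one_smul] at d
    dsimp only
    rw [key z hz s (abs_lt.2 hs).le]
    refine d.congr_of_eventuallyEq ?_
    filter_upwards [Ioo_mem_nhds hs.1 hs.2] with r hr
    rw [key z hz r (abs_lt.2 hr).le]
    exact eqn _ m _ (by simpa using sc r 1 (abs_lt.2 hr).le ⟨by norm_num, le_rfl⟩)

end Fl

/-- a smooth vector field has a local flow that is smooth jointly in time and initial point -/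
theorem flow (V : Type) [NormedAddCommGroup V] [NormedSpace ℝ V] [FiniteDimensional ℝ V]
    (F : V → V) (Ω : Set V) (hΩ : IsOpen Ω) (hF : ContDiffOn ℝ ∞ F Ω) (z₀ : V) (hz : z₀ ∈ Ω) :
    ∃ ε > 0, ∃ Φ : ℝ × V → V, ContDiffOn ℝ ∞ Φ (ball (0, z₀) ε) ∧
      ∀ z ∈ ball z₀ ε, Φ (0, z) = z ∧ ∀ s ∈ Ioo (-ε) ε, Φ (s, z) ∈ Ω ∧
        HasDerivAt (fun r => Φ (r, z)) (F (Φ (s, z))) s := by
  have := FiniteDimensional.complete ℝ V
  obtain ⟨ρ, ρ0, hρ⟩ := Metric.nhds_basis_closedBall.mem_iff.1 (hΩ.mem_nhds hz)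
  let b : ContDiffBump z₀ := ⟨ρ / 2, ρ, half_pos ρ0, half_lt_self ρ0⟩
  have hG : ContDiff ℝ ∞ fun x => b x • F x := contDiff_iff_contDiffAt.2 fun x => by
    by_cases hx : x ∈ Ω
    · exact b.contDiff.contDiffAt.smul (hF.contDiffAt (hΩ.mem_nhds hx))
    · have := notMem_tsupport_iff_eventuallyEq.1
        (show x ∉ tsupport b from fun h => hx (hρ (b.tsupport_eq ▸ h)))
      exact (contDiffAt_const (c := 0)).congr_of_eventuallyEq (this.mono fun y hy => by simp [hy])
  obtain ⟨ε, ε0, Φ, h1, h2⟩ := Fl.glob ⟨_, hG.continuous⟩ hG z₀ (half_pos ρ0)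
  refine ⟨ε, ε0, Φ, h1, fun z hz => ⟨(h2 z hz).1, fun s hs => ?_⟩⟩
  obtain ⟨a, d⟩ := (h2 z hz).2 s hs
  refine ⟨hρ (ball_subset_closedBall (ball_subset_ball (half_le_self ρ0.le) a)), ?_⟩
  simpa [b.one_of_mem_closedBall (ball_subset_closedBall a)] using d

end Vale.Agent.P234
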